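import Vale.Agent.P154.D8.K0.Data
import Vale.Agent.P154.ApxLemma

set_option maxRecDepth 100000

namespace Vale.Agent.P154.D8.K0

open PolyR Cert InT OutT

/-- The quotient polynomial for `j = 1`. -/
noncomputable def S1 (u : ℝ) : ℝ :=
  (213 / 16777216 : ℝ) * u ^ 0 + (-4115 / 16777216 : ℝ) * u ^ 1 + (-15119 / 8388608 : ℝ) * u ^ 2 + (181109 / 16777216 : ℝ) * u ^ 3 + (518773 / 16777216 : ℝ) * u ^ 4 + (-2401023 / 16777216 : ℝ) * u ^ 5 + (-318357 / 4194304 : ℝ) * u ^ 6 + (10242883 / 16777216 : ℝ) * u ^ 7 + (-3986841 / 8388608 : ℝ) * u ^ 8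

/-- Certificate polynomial. -/
def lpu1 : List ITm := [⟨(-6208011882335995323956012725830078125000000000),0,0⟩,⟨(-143146896045891480753198266029357910156250000000),1,0⟩,⟨(-683593714954062364995479583740234375000000000000),2,0⟩,⟨2886838185915401403720676898956298828125000000000,3,0⟩,⟨5830384330988524157101379647254943847656250000000,4,0⟩,⟨(-19026265363461583656261407411537338256835937500000),5,0⟩,⟨(-7114903834876751795993282367868474260351562500000),6,0⟩,⟨40350996271724104988767125461932902910886427968750,7,0⟩,⟨(-22147686721443675407766582302654170311783717460761),8,0⟩]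

/-- Certificate tree. -/
def tpu1 : OutT := (A (A (A (A (O l) (O l)) (O l)) (A (A (O l) (A (O l) (O l))) (A (A (O l) (A (O l) (O l))) (A (A (A (O l) (O l)) (A (O l) (O l))) (A (A (O l) (A (O l) (O l))) (A (A (O l) (O l)) (A (O l) (O l)))))))) (A (A (A (A (A (A (A (O l) (O l)) (A (O l) (O l))) (A (A (O l) (O l)) (A (O l) (O l)))) (A (A (A (O l) (O l)) (O l)) (A (O l) (O l)))) (A (A (A (O l) (O l)) (A (O l) (O l))) (A (O l) (O l)))) (A (A (A (O l) (O l)) (A (O l) (O l))) (A (A (O l) (O l)) (A (O l) (O l))))) (A (A (A (A (O l) (O l)) (A (O l) (O l))) (A (A (A (O l) (O l)) (A (O l) (O l))) (A (A (O l) (O l)) (A (O l) (O l))))) (A (A (A (A (O l) (A (O l) (O l))) (A (A (O l) (O l)) (A (O l) (O l)))) (A (A (A (O l) (A (O l) (O l))) (A (A (O l) (O l)) (A (O l) (O l)))) (A (A (A (O l) (O l)) (A (O l) (A (O l) (O l)))) (A (A (A (O l) (O l)) (A (O l) (O l))) (A (A (O l) (O l)) (A (O l) (O l))))))) (A (A (A (A (A (A (O l) (O l)) (A (O l) (O l))) (A (A (O l) (O l)) (A (O l) (O l)))) (A (A (A (O l) (O l)) (O l)) (A (O l) (O l)))) (A (A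 (A (O l) (O l)) (A (O l) (O l))) (A (O l) (O l)))) (A (A (A (O l) (O l)) (A (O l) (O l))) (A (O l) (O l))))))))

theorem hpu1 (x : ℝ) (h0 : 0 ≤ x) (h1 : x ≤ 1) : evalIL lpu1 x 0 ≤ 0 :=
  uni_le 8 65536 lpu1 (by norm_num) (by norm_num) (by decide +kernel)
    (chkOut_sound (uniPb 8 65536 lpu1) tpu1 0 32768 0 32768 (by decide +kernel)) x h0 h1

/-- Certificate polynomial. -/
def lpl1 : List ITm := [⟨(-25580249030099366791546344757080078125000000000),0,0⟩,⟨120733679902969015529379248619079589843750000000,1,0⟩,⟨683593714954062364995479583740234375000000000000,2,0⟩,⟨(-2886838185915401403720676898956298828125000000000),3,0⟩,⟨(-5830384330988524157101379647254943847656250000000),4,0⟩,⟨19026265363461583656261407411537338256835937500000,5,0⟩,⟨7114903834876751795993282367868474260351562500000,6,0⟩,⟨(-40350996271724104988767125461932902910886427968750),7,0⟩,⟨22147686721443675407766582302654170311783717460761,8,0⟩]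

/-- Certificate tree. -/
def tpl1 : OutT := (A (A (A (A (O l) (O l)) (A (A (O l) (A (O l) (O l))) (A (A (A (O l) (O l)) (A (O l) (O l))) (A (O l) (O l))))) (A (A (A (A (O l) (O l)) (O l)) (A (O l) (O l))) (A (A (O l) (O l)) (A (O l) (O l))))) (A (A (A (A (O l) (O l)) (A (A (O l) (O l)) (A (O l) (O l)))) (A (A (A (O l) (O l)) (A (A (O l) (O l)) (A (O l) (O l)))) (A (A (A (O l) (O l)) (A (O l) (A (O l) (O l)))) (A (A (A (O l) (O l)) (A (O l) (O l))) (A (A (O l) (A (O l) (O l))) (A (A (O l) (O l)) (A (O l) (O l)))))))) (A (A (A (A (A (A (A (O l) (O l)) (A (O l) (O l))) (A (A (O l) (O l)) (A (O l) (O l)))) (A (A (A (O l) (O l)) (A (O l) (O l))) (A (A (O l) (O l)) (A (O l) (O l))))) (A (A (A (A (O l) (O l)) (A (O l) (O l))) (A (O l) (O l))) (A (A (O l) (O l)) (A (O l) (O l))))) (A (A (A (A (O l) (O l)) (A (O l) (O l))) (A (O l) (O l))) (A (A (O l) (O l)) (A (O l) (O l))))) (A (A (A (A (O l) (O l)) (A (O l) (O l))) (A (A (O l) (O l)) (A (O l) (O l)))) (A (A (A (O l) (O l)) (A (O l) (O l))) (A (A (O l) (O l)) (A (A (O l) (O l)) (A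 (O l) (A (O l) (A (O l) (O l)))))))))))

theorem hpl1 (x : ℝ) (h0 : 0 ≤ x) (h1 : x ≤ 1) : evalIL lpl1 x 0 ≤ 0 :=
  uni_le 8 65536 lpl1 (by norm_num) (by norm_num) (by decide +kernel)
    (chkOut_sound (uniPb 8 65536 lpl1) tpl1 0 32768 0 32768 (by decide +kernel)) x h0 h1

/-- Certificate polynomial. -/
def lnu1 : List ITm := [⟨(-1589251041878014802932739257812500000000000000000),0,0⟩,⟨18322802693874109536409378051757812500000000000000,1,0⟩,⟨(-43749997757059991359710693359375000000000000000000),2,0⟩,⟨(-92378821949292844919061660766601562500000000000000),3,0⟩,⟨93286149295816386513622074356079101562500000000000,4,0⟩,⟨152210122907692669250091259292298706054687500000000,5,0⟩,⟨(-28459615339507007183973129471473897041406250000000),6,0⟩,⟨(-80701992543448209977534250923865805821772855937500),7,0⟩,⟨(-22147686721443675407766582302654170311783717460761),8,0⟩]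

/-- Certificate tree. -/
def tnu1 : OutT := (A (A (A (A (O l) (A (O l) (O l))) (A (A (O l) (O l)) (A (O l) (O l)))) (A (A (O l) (O l)) (O l))) (A (A (O l) (A (O l) (O l))) (A (A (A (O l) (O l)) (A (O l) (A (O l) (O l)))) (A (A (A (A (O l) (O l)) (A (A (O l) (O l)) (A (O l) (O l)))) (A (A (O l) (O l)) (A (O l) (O l)))) (A (A (O l) (O l)) (O l))))))

theorem hnu1 (x : ℝ) (h0 : 0 ≤ x) (h1 : x ≤ 1) : evalIL lnu1 x 0 ≤ 0 :=
  uni_le 8 65536 lnu1 (by norm_num) (by norm_num) (by decide +kernel)
    (chkOut_sound (uniPb 8 65536 lnu1) tnu1 0 32768 0 32768 (by decide +kernel)) x h0 h1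

/-- Certificate polynomial. -/
def lnl1 : List ITm := [⟨(-6548543751705437898635864257812500000000000000000),0,0⟩,⟨(-15453911027580033987760543823242187500000000000000),1,0⟩,⟨43749997757059991359710693359375000000000000000000,2,0⟩,⟨92378821949292844919061660766601562500000000000000,3,0⟩,⟨(-93286149295816386513622074356079101562500000000000),4,0⟩,⟨(-152210122907692669250091259292298706054687500000000),5,0⟩,⟨28459615339507007183973129471473897041406250000000,6,0⟩,⟨80701992543448209977534250923865805821772855937500,7,0⟩,⟨22147686721443675407766582302654170311783717460761,8,0⟩]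

/-- Certificate tree. -/
def tnl1 : OutT := (A (A (O l) (A (O l) (A (O l) (O l)))) (A (A (A (A (O l) (O l)) (A (A (O l) (O l)) (A (O l) (O l)))) (A (A (A (O l) (O l)) (A (O l) (O l))) (A (O l) (O l)))) (A (A (A (O l) (O l)) (O l)) (A (O l) (A (O l) (A (O l) (A (O l) (A (O l) (O l)))))))))

theorem hnl1 (x : ℝ) (h0 : 0 ≤ x) (h1 : x ≤ 1) : evalIL lnl1 x 0 ≤ 0 :=
  uni_le 8 65536 lnl1 (by norm_num) (by norm_num) (by decide +kernel)
    (chkOut_sound (uniPb 8 65536 lnl1) tnl1 0 32768 0 32768 (by decide +kernel)) x h0 h1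

theorem apx1 (u : ℝ) (h0 : -(220337 / 625000 : ℝ) ≤ u) (h1 : u ≤ 2 * (220337 / 625000 : ℝ)) :
    |((1 + u)⁻¹) ^ 1 - evalZ Ax.p1 (3 * u) / Ax.D1| ≤ Ax.e1 * |u| ^ Ax.m1 := by
  have hu : 0 < 1 + u := by norm_num at h0 ⊢; linarith
  refine apx_of_S 1 2 _ (S1 u) _ u hu ?_ ?_ ?_
  · simp only [Ax, evalZ_cons, evalZ_nil, S1]
    push_cast
    ring
  · rcases le_total 0 u with hs | hs
    · have hx := hpu1 (u / (2 * (220337 / 625000 : ℝ))) (by positivity) (by rw [div_le_one (by norm_num)]; exact h1)
      have e : evalIL lpu1 (u / (2 * (220337 / 625000 : ℝ))) 0 = 762939453125000000000000000000000000000000000000000 * (S1 u - Ax.e1 * (1 + u) ^ 1) := by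
        simp only [lpu1, evalIL, List.map_cons, List.map_nil, List.sum_cons, List.sum_nil, S1, Ax]
        push_cast
        ring
      rw [e] at hx
      have := cmul_nonpos (by norm_num) hx
      simp only [Ax] at this ⊢
      linarith
    · have hx := hnu1 (-u / (220337 / 625000 : ℝ)) (by apply div_nonneg <;> [linarith; norm_num]) (by rw [div_le_one (by norm_num)]; linarith)
      have e : evalIL lnu1 (-u / (220337 / 625000 : ℝ)) 0 = 195312500000000000000000000000000000000000000000000000 * (S1 u - Ax.e1 * (1 + u) ^ 1) := by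
        simp only [lnu1, evalIL, List.map_cons, List.map_nil, List.sum_cons, List.sum_nil, S1, Ax]
        push_cast
        ring
      rw [e] at hx
      have := cmul_nonpos (by norm_num) hx
      simp only [Ax] at this ⊢
      linarith
  · rcases le_total 0 u with hs | hs
    · have hx := hpl1 (u / (2 * (220337 / 625000 : ℝ))) (by positivity) (by rw [div_le_one (by norm_num)]; exact h1)
      have e : evalIL lpl1 (u / (2 * (220337 / 625000 : ℝ))) 0 = 762939453125000000000000000000000000000000000000000 * (-S1 u - Ax.e1 * (1 + u) ^ 1) := by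
        simp only [lpl1, evalIL, List.map_cons, List.map_nil, List.sum_cons, List.sum_nil, S1, Ax]
        push_cast
        ring
      rw [e] at hx
      have := cmul_nonpos (by norm_num) hx
      simp only [Ax] at this ⊢
      linarith
    · have hx := hnl1 (-u / (220337 / 625000 : ℝ)) (by apply div_nonneg <;> [linarith; norm_num]) (by rw [div_le_one (by norm_num)]; linarith)
      have e : evalIL lnl1 (-u / (220337 / 625000 : ℝ)) 0 = 195312500000000000000000000000000000000000000000000000 * (-S1 u - Ax.e1 * (1 + u) ^ 1) := by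
        simp only [lnl1, evalIL, List.map_cons, List.map_nil, List.sum_cons, List.sum_nil, S1, Ax]
        push_cast
        ring
      rw [e] at hx
      have := cmul_nonpos (by norm_num) hx
      simp only [Ax] at this ⊢
      linarith

/-- The quotient polynomial for `j = 2`. -/
noncomputable def S2 (u : ℝ) : ℝ :=
  (2167 / 16777216 : ℝ) * u ^ 0 + (-43943 / 16777216 : ℝ) * u ^ 1 + (-177995 / 8388608 : ℝ) * u ^ 2 + (1715387 / 16777216 : ℝ) * u ^ 3 + (7210453 / 16777216 : ℝ) * u ^ 4 + (-10623325 / 8388608 : ℝ) * u ^ 5 + (-36407429 / 16777216 : ℝ) * u ^ 6 + (24669289 / 4194304 : ℝ) * u ^ 7 + (13401563 / 16777216 : ℝ) * u ^ 8 + (-39236985 / 8388608 : ℝ) * u ^ 9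

/-- Certificate polynomial. -/
def lpu2 : List ITm := [⟨(-4551559129595261765643954277038574218750000000000000),0,0⟩,⟨(-103163267502850430901162326335906982421875000000000000),1,0⟩,⟨(-508318603199396993659320287406444549560546875000000000),2,0⟩,⟨1708931049541596037373971194028854370117187500000000000,3,0⟩,⟨5064801005272199615022383848726749420166015625000000000,4,0⟩,⟨(-10522712636045944176459014339417505264282226562500000000),5,0⟩,⟨(-12713486560002953875447213755171246331362915039062500000),6,0⟩,⟨24295659446297601813723684330858833409441427226562500000,7,0⟩,⟨2326510034053989008220532105052792193792177283378843750,8,0⟩,⟨(-9605334911349148877728859517719277586581368270353184469),9,0⟩]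

/-- Certificate tree. -/
def tpu2 : OutT := (A (A (A (A (O l) (O l)) (O l)) (A (A (O l) (A (O l) (O l))) (A (A (O l) (A (O l) (O l))) (A (A (O l) (A (O l) (O l))) (A (A (O l) (A (O l) (O l))) (A (A (O l) (O l)) (A (O l) (O l)))))))) (A (A (A (A (A (A (A (O l) (O l)) (A (O l) (O l))) (A (A (O l) (O l)) (O l))) (A (A (O l) (O l)) (A (O l) (O l)))) (A (A (A (O l) (O l)) (O l)) (A (O l) (O l)))) (A (A (A (O l) (O l)) (A (O l) (O l))) (A (A (O l) (O l)) (A (O l) (O l))))) (A (A (A (A (O l) (O l)) (A (O l) (O l))) (A (A (O l) (O l)) (A (A (O l) (O l)) (A (O l) (O l))))) (A (A (A (A (O l) (O l)) (A (A (O l) (O l)) (A (O l) (O l)))) (A (A (A (O l) (O l)) (A (O l) (A (O l) (O l)))) (A (A (A (O l) (O l)) (A (O l) (O l))) (A (A (A (O l) (O l)) (A (O l) (O l))) (A (A (O l) (O l)) (A (O l) (O l))))))) (A (A (A (A (A (A (O l) (O l)) (A (O l) (O l))) (A (A (O l) (O l)) (O l))) (A (A (O l) (O l)) (A (O l) (O l)))) (A (A (A (O l) (O l)) (O l)) (A (O l) (O l)))) (A (A (A (O l) (O l)) (O l)) (A (O l) (O l))))))))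

theorem hpu2 (x : ℝ) (h0 : 0 ≤ x) (h1 : x ≤ 1) : evalIL lpu2 x 0 ≤ 0 :=
  uni_le 9 65536 lpu2 (by norm_num) (by norm_num) (by decide +kernel)
    (chkOut_sound (uniPb 9 65536 lpu2) tpu2 0 32768 0 32768 (by decide +kernel)) x h0 h1

/-- Certificate polynomial. -/
def lpl2 : List ITm := [⟨(-16869527996732358587905764579772949218750000000000000),0,0⟩,⟨72956175828267078031785786151885986328125000000000000,1,0⟩,⟨497669419266112718105432577431201934814453125000000000,2,0⟩,⟨(-1708931049541596037373971194028854370117187500000000000),3,0⟩,⟨(-5064801005272199615022383848726749420166015625000000000),4,0⟩,⟨10522712636045944176459014339417505264282226562500000000,5,0⟩,⟨12713486560002953875447213755171246331362915039062500000,6,0⟩,⟨(-24295659446297601813723684330858833409441427226562500000),7,0⟩,⟨(-2326510034053989008220532105052792193792177283378843750),8,0⟩,⟨9605334911349148877728859517719277586581368270353184469,9,0⟩]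

/-- Certificate tree. -/
def tpl2 : OutT := (A (A (A (A (O l) (O l)) (A (A (O l) (A (O l) (O l))) (A (A (A (O l) (O l)) (A (O l) (O l))) (A (O l) (O l))))) (A (A (A (A (O l) (O l)) (O l)) (A (O l) (O l))) (A (A (O l) (O l)) (A (O l) (O l))))) (A (A (A (A (O l) (O l)) (A (O l) (A (O l) (O l)))) (A (A (A (O l) (O l)) (A (O l) (A (O l) (O l)))) (A (A (A (O l) (O l)) (A (O l) (O l))) (A (A (A (O l) (O l)) (A (O l) (O l))) (A (A (O l) (A (O l) (O l))) (A (A (O l) (O l)) (A (O l) (O l)))))))) (A (A (A (A (A (A (A (O l) (O l)) (A (O l) (O l))) (A (A (O l) (O l)) (A (O l) (O l)))) (A (A (A (O l) (O l)) (A (O l) (O l))) (A (A (O l) (O l)) (A (O l) (O l))))) (A (A (A (O l) (O l)) (A (O l) (O l))) (A (A (O l) (O l)) (A (O l) (O l))))) (A (A (A (O l) (O l)) (A (O l) (O l))) (A (A (O l) (O l)) (A (O l) (O l))))) (A (A (A (A (O l) (O l)) (A (O l) (O l))) (A (O l) (O l))) (A (A (A (O l) (O l)) (A (O l) (O l))) (A (A (O l) (O l)) (A (A (O l) (O l)) (A (O l) (A (O l) (A (O l) (O l)))))))))))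

theorem hpl2 (x : ℝ) (h0 : 0 ≤ x) (h1 : x ≤ 1) : evalIL lpl2 x 0 ≤ 0 :=
  uni_le 9 65536 lpl2 (by norm_num) (by norm_num) (by decide +kernel)
    (chkOut_sound (uniPb 9 65536 lpl2) tpl2 0 32768 0 32768 (by decide +kernel)) x h0 h1

/-- Certificate polynomial. -/
def lnu2 : List ITm := [⟨(-2330398274352774024009704589843750000000000000000000000),0,0⟩,⟨26409796480729710310697555541992187500000000000000000000,1,0⟩,⟨(-65064781209522815188392996788024902343750000000000000000),2,0⟩,⟨(-109371587170662146391934156417846679687500000000000000000),3,0⟩,⟨162073632168710387680716283159255981445312500000000000000,4,0⟩,⟨168363402176735106823344229430680084228515625000000000000,5,0⟩,⟨(-101707892480023631003577710041369970650903320312500000000),6,0⟩,⟨(-97182637785190407254894737323435333637765708906250000000),7,0⟩,⟨4653020068107978016441064210105584387584354566757687500,8,0⟩,⟨9605334911349148877728859517719277586581368270353184469,9,0⟩]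

/-- Certificate tree. -/
def tnu2 : OutT := (A (A (A (A (O l) (O l)) (A (A (O l) (O l)) (A (O l) (O l)))) (A (A (O l) (O l)) (O l))) (A (A (O l) (A (O l) (O l))) (A (A (A (O l) (O l)) (A (O l) (A (O l) (A (O l) (O l))))) (A (A (A (A (O l) (O l)) (A (A (O l) (O l)) (A (O l) (O l)))) (A (A (A (O l) (O l)) (O l)) (A (O l) (O l)))) (A (A (O l) (O l)) (O l))))))

theorem hnu2 (x : ℝ) (h0 : 0 ≤ x) (h1 : x ≤ 1) : evalIL lnu2 x 0 ≤ 0 :=
  uni_le 9 65536 lnu2 (by norm_num) (by norm_num) (by decide +kernel)
    (chkOut_sound (uniPb 9 65536 lnu2) tnu2 0 32768 0 32768 (by decide +kernel)) x h0 h1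

/-- Certificate polynomial. -/
def lnl2 : List ITm := [⟨(-8637198334326967597007751464843750000000000000000000000),0,0⟩,⟨(-18676781012036371976137161254882812500000000000000000000),1,0⟩,⟨63701685666062427917495369911193847656250000000000000000,2,0⟩,⟨109371587170662146391934156417846679687500000000000000000,3,0⟩,⟨(-162073632168710387680716283159255981445312500000000000000),4,0⟩,⟨(-168363402176735106823344229430680084228515625000000000000),5,0⟩,⟨101707892480023631003577710041369970650903320312500000000,6,0⟩,⟨97182637785190407254894737323435333637765708906250000000,7,0⟩,⟨(-4653020068107978016441064210105584387584354566757687500),8,0⟩,⟨(-9605334911349148877728859517719277586581368270353184469),9,0⟩]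

/-- Certificate tree. -/
def tnl2 : OutT := (A (A (O l) (A (O l) (A (O l) (O l)))) (A (A (A (A (O l) (O l)) (A (A (O l) (O l)) (A (A (O l) (O l)) (A (O l) (O l))))) (A (A (A (A (O l) (O l)) (O l)) (A (O l) (O l))) (A (O l) (O l)))) (A (A (A (O l) (O l)) (A (O l) (O l))) (A (A (O l) (O l)) (A (O l) (A (O l) (A (O l) (A (O l) (O l)))))))))

theorem hnl2 (x : ℝ) (h0 : 0 ≤ x) (h1 : x ≤ 1) : evalIL lnl2 x 0 ≤ 0 :=
  uni_le 9 65536 lnl2 (by norm_num) (by norm_num) (by decide +kernel)
    (chkOut_sound (uniPb 9 65536 lnl2) tnl2 0 32768 0 32768 (by decide +kernel)) x h0 h1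

theorem apx2 (u : ℝ) (h0 : -(220337 / 625000 : ℝ) ≤ u) (h1 : u ≤ 2 * (220337 / 625000 : ℝ)) :
    |((1 + u)⁻¹) ^ 2 - evalZ Ax.p2 (3 * u) / Ax.D2| ≤ Ax.e2 * |u| ^ Ax.m2 := by
  have hu : 0 < 1 + u := by norm_num at h0 ⊢; linarith
  refine apx_of_S 2 2 _ (S2 u) _ u hu ?_ ?_ ?_
  · simp only [Ax, evalZ_cons, evalZ_nil, S2]
    push_cast
    ring
  · rcases le_total 0 u with hs | hs
    · have hx := hpu2 (u / (2 * (220337 / 625000 : ℝ))) (by positivity) (by rw [div_le_one (by norm_num)]; exact h1)
      have e : evalIL lpu2 (u / (2 * (220337 / 625000 : ℝ))) 0 = 47683715820312500000000000000000000000000000000000000000 * (S2 u - Ax.e2 * (1 + u) ^ 2) := by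
        simp only [lpu2, evalIL, List.map_cons, List.map_nil, List.sum_cons, List.sum_nil, S2, Ax]
        push_cast
        ring
      rw [e] at hx
      have := cmul_nonpos (by norm_num) hx
      simp only [Ax] at this ⊢
      linarith
    · have hx := hnu2 (-u / (220337 / 625000 : ℝ)) (by apply div_nonneg <;> [linarith; norm_num]) (by rw [div_le_one (by norm_num)]; linarith)
      have e : evalIL lnu2 (-u / (220337 / 625000 : ℝ)) 0 = 24414062500000000000000000000000000000000000000000000000000 * (S2 u - Ax.e2 * (1 + u) ^ 2) := by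
        simp only [lnu2, evalIL, List.map_cons, List.map_nil, List.sum_cons, List.sum_nil, S2, Ax]
        push_cast
        ring
      rw [e] at hx
      have := cmul_nonpos (by norm_num) hx
      simp only [Ax] at this ⊢
      linarith
  · rcases le_total 0 u with hs | hs
    · have hx := hpl2 (u / (2 * (220337 / 625000 : ℝ))) (by positivity) (by rw [div_le_one (by norm_num)]; exact h1)
      have e : evalIL lpl2 (u / (2 * (220337 / 625000 : ℝ))) 0 = 47683715820312500000000000000000000000000000000000000000 * (-S2 u - Ax.e2 * (1 + u) ^ 2) := by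
        simp only [lpl2, evalIL, List.map_cons, List.map_nil, List.sum_cons, List.sum_nil, S2, Ax]
        push_cast
        ring
      rw [e] at hx
      have := cmul_nonpos (by norm_num) hx
      simp only [Ax] at this ⊢
      linarith
    · have hx := hnl2 (-u / (220337 / 625000 : ℝ)) (by apply div_nonneg <;> [linarith; norm_num]) (by rw [div_le_one (by norm_num)]; linarith)
      have e : evalIL lnl2 (-u / (220337 / 625000 : ℝ)) 0 = 24414062500000000000000000000000000000000000000000000000000 * (-S2 u - Ax.e2 * (1 + u) ^ 2) := by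
        simp only [lnl2, evalIL, List.map_cons, List.map_nil, List.sum_cons, List.sum_nil, S2, Ax]
        push_cast
        ring
      rw [e] at hx
      have := cmul_nonpos (by norm_num) hx
      simp only [Ax] at this ⊢
      linarith

/-- The quotient polynomial for `j = 3`. -/
noncomputable def S3 (u : ℝ) : ℝ :=
  (75521 / 16777216 : ℝ) * u ^ 0 + (481643 / 16777216 : ℝ) * u ^ 1 + (-6644569 / 16777216 : ℝ) * u ^ 2 + (-23602157 / 16777216 : ℝ) * u ^ 3 + (5719283 / 1048576 : ℝ) * u ^ 4 + (206103125 / 16777216 : ℝ) * u ^ 5 + (-419710553 / 16777216 : ℝ) * u ^ 6 + (-454189091 / 16777216 : ℝ) * u ^ 7 + (441146457 / 16777216 : ℝ) * u ^ 8 + (49294885 / 2097152 : ℝ) * u ^ 9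

/-- Certificate polynomial. -/
def lpu3 : List ITm := [⟨(-5267652980478487734217196702957153320312500000000000),0,0⟩,⟨244441884111239460253273136913776397705078125000000000,1,0⟩,⟨(-4862119318939915353894321015104651451110839843750000000),2,0⟩,⟨(-11796129313332776273897163628134876489639282226562500000),3,0⟩,⟨32138929731972403543360246093273162841796875000000000000,4,0⟩,⟨51037786139604519732375557788492739200592041015625000000,5,0⟩,⟨(-73281533758630792807388887684051109561122131347656250000),6,0⟩,⟨(-55913769338667761580274524285051936415529814467773437500),7,0⟩,⟨38291491026004451782729805948708783977237446217223390625,8,0⟩,⟨24135079687771192856715325660579030265123892267956324258,9,0⟩]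

/-- Certificate tree. -/
def tpu3 : OutT := (A (A (A (A (A (A (O l) (O l)) (A (O l) (O l))) (A (O l) (O l))) (A (O l) (O l))) (A (A (O l) (O l)) (A (O l) (O l)))) (A (A (A (A (O l) (O l)) (A (O l) (A (O l) (O l)))) (A (A (A (O l) (A (O l) (O l))) (A (A (O l) (A (O l) (O l))) (A (A (O l) (O l)) (A (O l) (O l))))) (A (A (A (A (O l) (O l)) (A (O l) (O l))) (A (A (O l) (O l)) (O l))) (A (A (O l) (O l)) (A (O l) (O l)))))) (A (A (A (A (O l) (O l)) (A (O l) (O l))) (A (A (O l) (O l)) (O l))) (A (A (O l) (O l)) (A (A (O l) (O l)) (A (O l) (A (O l) (A (O l) (A (O l) (O l))))))))))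

theorem hpu3 (x : ℝ) (h0 : 0 ≤ x) (h1 : x ≤ 1) : evalIL lpu3 x 0 ≤ 0 :=
  uni_le 9 65536 lpu3 (by norm_num) (by norm_num) (by decide +kernel)
    (chkOut_sound (uniPb 9 65536 lpu3) tpu3 0 32768 0 32768 (by decide +kernel)) x h0 h1

/-- Certificate polynomial. -/
def lpl3 : List ITm := [⟨(-219911244769832592282909899950027465820312500000000000),0,0⟩,⟨(-720748214929898267655516974627971649169921875000000000),1,0⟩,⟨4526286013296424711825238773599267005920410156250000000,2,0⟩,⟨11717199710062835156455483229365199804306030273437500000,3,0⟩,⟨(-32138929731972403543360246093273162841796875000000000000),4,0⟩,⟨(-51037786139604519732375557788492739200592041015625000000),5,0⟩,⟨73281533758630792807388887684051109561122131347656250000,6,0⟩,⟨55913769338667761580274524285051936415529814467773437500,7,0⟩,⟨(-38291491026004451782729805948708783977237446217223390625),8,0⟩,⟨(-24135079687771192856715325660579030265123892267956324258),9,0⟩]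

/-- Certificate tree. -/
def tpl3 : OutT := (A (A (A (O l) (A (O l) (O l))) (A (A (A (O l) (O l)) (A (A (O l) (O l)) (A (A (O l) (O l)) (A (O l) (O l))))) (A (A (A (A (O l) (O l)) (O l)) (A (O l) (O l))) (A (O l) (O l))))) (A (A (A (A (O l) (O l)) (A (O l) (O l))) (A (A (O l) (O l)) (A (O l) (O l)))) (A (A (A (O l) (O l)) (A (A (O l) (O l)) (A (O l) (A (O l) (O l))))) (A (A (A (A (O l) (O l)) (A (A (O l) (O l)) (A (O l) (O l)))) (A (A (A (O l) (A (O l) (O l))) (A (A (O l) (O l)) (A (O l) (O l)))) (A (A (O l) (O l)) (A (O l) (O l))))) (A (A (A (O l) (O l)) (A (O l) (O l))) (A (O l) (O l)))))))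

theorem hpl3 (x : ℝ) (h0 : 0 ≤ x) (h1 : x ≤ 1) : evalIL lpl3 x 0 ≤ 0 :=
  uni_le 9 65536 lpl3 (by norm_num) (by norm_num) (by decide +kernel)
    (chkOut_sound (uniPb 9 65536 lpl3) tpl3 0 32768 0 32768 (by decide +kernel)) x h0 h1

/-- Certificate polynomial. -/
def lnu3 : List ITm := [⟨(-1348519163002492859959602355957031250000000000000000000),0,0⟩,⟨(-31288561166238650912418961524963378906250000000000000000),1,0⟩,⟨(-311175636412154582649236544966697692871093750000000000000),2,0⟩,⟨377476138026648840764709236100316047668457031250000000000,3,0⟩,⟨514222875711558456693763937492370605468750000000000000000,4,0⟩,⟨(-408302289116836157859004462307941913604736328125000000000),5,0⟩,⟨(-293126135034523171229555550736204438244488525390625000000),6,0⟩,⟨111827538677335523160549048570103872831059628935546875000,7,0⟩,⟨38291491026004451782729805948708783977237446217223390625,8,0⟩,⟨(-12067539843885596428357662830289515132561946133978162129),9,0⟩]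

/-- Certificate tree. -/
def tnu3 : OutT := (A (A (A (A (O l) (O l)) (O l)) (A (O l) (O l))) (A (A (O l) (A (O l) (O l))) (A (A (A (O l) (O l)) (A (A (O l) (O l)) (A (A (O l) (O l)) (A (O l) (O l))))) (A (A (A (A (O l) (O l)) (A (O l) (O l))) (A (O l) (O l))) (A (A (O l) (O l)) (O l))))))

theorem hnu3 (x : ℝ) (h0 : 0 ≤ x) (h1 : x ≤ 1) : evalIL lnu3 x 0 ≤ 0 :=
  uni_le 9 65536 lnu3 (by norm_num) (by norm_num) (by decide +kernel)
    (chkOut_sound (uniPb 9 65536 lnu3) tnu3 0 32768 0 32768 (by decide +kernel)) x h0 h1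

/-- Certificate polynomial. -/
def lnl3 : List ITm := [⟨(-56297278661077143624424934387207031250000000000000000000),0,0⟩,⟨92255771511026978259906172752380371093750000000000000000,1,0⟩,⟨289682304850971181556815281510353088378906250000000000000,2,0⟩,⟨(-374950390722010725006575463339686393737792968750000000000),3,0⟩,⟨(-514222875711558456693763937492370605468750000000000000000),4,0⟩,⟨408302289116836157859004462307941913604736328125000000000,5,0⟩,⟨293126135034523171229555550736204438244488525390625000000,6,0⟩,⟨(-111827538677335523160549048570103872831059628935546875000),7,0⟩,⟨(-38291491026004451782729805948708783977237446217223390625),8,0⟩,⟨12067539843885596428357662830289515132561946133978162129,9,0⟩]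

/-- Certificate tree. -/
def tnl3 : OutT := (A (A (O l) (A (O l) (A (O l) (A (O l) (A (O l) (O l)))))) (A (A (A (A (A (O l) (O l)) (A (O l) (O l))) (A (O l) (O l))) (A (A (O l) (O l)) (O l))) (A (A (O l) (O l)) (A (O l) (A (O l) (A (O l) (A (O l) (A (O l) (O l)))))))))

theorem hnl3 (x : ℝ) (h0 : 0 ≤ x) (h1 : x ≤ 1) : evalIL lnl3 x 0 ≤ 0 :=
  uni_le 9 65536 lnl3 (by norm_num) (by norm_num) (by decide +kernel)
    (chkOut_sound (uniPb 9 65536 lnl3) tnl3 0 32768 0 32768 (by decide +kernel)) x h0 h1

theorem apx3 (u : ℝ) (h0 : -(220337 / 625000 : ℝ) ≤ u) (h1 : u ≤ 2 * (220337 / 625000 : ℝ)) :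
    |((1 + u)⁻¹) ^ 3 - evalZ Ax.p3 (3 * u) / Ax.D3| ≤ Ax.e3 * |u| ^ Ax.m3 := by
  have hu : 0 < 1 + u := by norm_num at h0 ⊢; linarith
  refine apx_of_S 3 2 _ (S3 u) _ u hu ?_ ?_ ?_
  · simp only [Ax, evalZ_cons, evalZ_nil, S3]
    push_cast
    ring
  · rcases le_total 0 u with hs | hs
    · have hx := hpu3 (u / (2 * (220337 / 625000 : ℝ))) (by positivity) (by rw [div_le_one (by norm_num)]; exact h1)
      have e : evalIL lpu3 (u / (2 * (220337 / 625000 : ℝ))) 0 = 23841857910156250000000000000000000000000000000000000000 * (S3 u - Ax.e3 * (1 + u) ^ 3) := by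
        simp only [lpu3, evalIL, List.map_cons, List.map_nil, List.sum_cons, List.sum_nil, S3, Ax]
        push_cast
        ring
      rw [e] at hx
      have := cmul_nonpos (by norm_num) hx
      simp only [Ax] at this ⊢
      linarith
    · have hx := hnu3 (-u / (220337 / 625000 : ℝ)) (by apply div_nonneg <;> [linarith; norm_num]) (by rw [div_le_one (by norm_num)]; linarith)
      have e : evalIL lnu3 (-u / (220337 / 625000 : ℝ)) 0 = 6103515625000000000000000000000000000000000000000000000000 * (S3 u - Ax.e3 * (1 + u) ^ 3) := by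
        simp only [lnu3, evalIL, List.map_cons, List.map_nil, List.sum_cons, List.sum_nil, S3, Ax]
        push_cast
        ring
      rw [e] at hx
      have := cmul_nonpos (by norm_num) hx
      simp only [Ax] at this ⊢
      linarith
  · rcases le_total 0 u with hs | hs
    · have hx := hpl3 (u / (2 * (220337 / 625000 : ℝ))) (by positivity) (by rw [div_le_one (by norm_num)]; exact h1)
      have e : evalIL lpl3 (u / (2 * (220337 / 625000 : ℝ))) 0 = 23841857910156250000000000000000000000000000000000000000 * (-S3 u - Ax.e3 * (1 + u) ^ 3) := by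
        simp only [lpl3, evalIL, List.map_cons, List.map_nil, List.sum_cons, List.sum_nil, S3, Ax]
        push_cast
        ring
      rw [e] at hx
      have := cmul_nonpos (by norm_num) hx
      simp only [Ax] at this ⊢
      linarith
    · have hx := hnl3 (-u / (220337 / 625000 : ℝ)) (by apply div_nonneg <;> [linarith; norm_num]) (by rw [div_le_one (by norm_num)]; linarith)
      have e : evalIL lnl3 (-u / (220337 / 625000 : ℝ)) 0 = 6103515625000000000000000000000000000000000000000000000000 * (-S3 u - Ax.e3 * (1 + u) ^ 3) := by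
        simp only [lnl3, evalIL, List.map_cons, List.map_nil, List.sum_cons, List.sum_nil, S3, Ax]
        push_cast
        ring
      rw [e] at hx
      have := cmul_nonpos (by norm_num) hx
      simp only [Ax] at this ⊢
      linarith

/-- The quotient polynomial for `j = 4`. -/
noncomputable def S4 (u : ℝ) : ℝ :=
  (41671 / 4194304 : ℝ) * u ^ 0 + (3149245 / 4194304 : ℝ) * u ^ 1 + (15476981 / 8388608 : ℝ) * u ^ 2 + (-264984943 / 16777216 : ℝ) * u ^ 3 + (-153661629 / 4194304 : ℝ) * u ^ 4 + (1187861003 / 16777216 : ℝ) * u ^ 5 + (1219005213 / 8388608 : ℝ) * u ^ 6 + (-758760489 / 16777216 : ℝ) * u ^ 7 + (-724684187 / 4194304 : ℝ) * u ^ 8 + (-1204187527 / 16777216 : ℝ) * u ^ 9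

/-- Certificate polynomial. -/
def lpu4 : List ITm := [⟨(-24289225741824793658452108502388000488281250000000000000),0,0⟩,⟨170573289539731831609969958662986755371093750000000000000,1,0⟩,⟨350781078283050568152248160913586616516113281250000000000,2,0⟩,⟨(-2680574240154065897037712507881224155426025390625000000000),3,0⟩,⟨(-4324603319943836677789396615955699235200881958007812500000),4,0⟩,⟨5883054498537091354886823928295453748703002929687500000000,5,0⟩,⟨8513540679870055130544211882623766147089660644531250000000,6,0⟩,⟨(-1868171640663238976172790147474871106714639661816406250000),7,0⟩,⟨(-5032204176709111731308452977485033060810087425072033750000),8,0⟩,⟨(-1473944098011645877050331558244445840730620133243273995479),9,0⟩]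

/-- Certificate tree. -/
def tpu4 : OutT := (A (A (A (A (O l) (O l)) (A (A (O l) (O l)) (A (A (O l) (O l)) (O l)))) (A (A (O l) (O l)) (A (O l) (O l)))) (A (A (A (O l) (O l)) (A (O l) (O l))) (A (A (A (O l) (O l)) (A (A (O l) (O l)) (A (A (O l) (O l)) (A (O l) (O l))))) (A (A (A (A (A (O l) (O l)) (A (O l) (O l))) (A (O l) (O l))) (A (A (O l) (O l)) (O l))) (A (A (O l) (O l)) (O l))))))

theorem hpu4 (x : ℝ) (h0 : 0 ≤ x) (h1 : x ≤ 1) : evalIL lpu4 x 0 ≤ 0 :=
  uni_le 9 65536 lpu4 (by norm_num) (by norm_num) (by decide +kernel)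
    (chkOut_sound (uniPb 9 65536 lpu4) tpu4 0 32768 0 32768 (by decide +kernel)) x h0 h1

/-- Certificate polynomial. -/
def lpl4 : List ITm := [⟨(-33764114171219716808991506695747375488281250000000000000),0,0⟩,⟨(-334301913621914081886643543839454650878906250000000000000),1,0⟩,⟨(-523943352736150362452463014051318168640136718750000000000),2,0⟩,⟨2599178920546230911700696102343499660491943359375000000000,3,0⟩,⟨4310255799514691448058034868958126753568649291992187500000,4,0⟩,⟨(-5883054498537091354886823928295453748703002929687500000000),5,0⟩,⟨(-8513540679870055130544211882623766147089660644531250000000),6,0⟩,⟨1868171640663238976172790147474871106714639661816406250000,7,0⟩,⟨5032204176709111731308452977485033060810087425072033750000,8,0⟩,⟨1473944098011645877050331558244445840730620133243273995479,9,0⟩]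

/-- Certificate tree. -/
def tpl4 : OutT := (A (A (A (O l) (O l)) (A (O l) (A (O l) (A (O l) (O l))))) (A (A (A (A (A (O l) (O l)) (A (O l) (A (O l) (O l)))) (A (A (A (O l) (O l)) (A (O l) (O l))) (A (O l) (O l)))) (A (A (A (O l) (O l)) (O l)) (A (O l) (O l)))) (A (A (O l) (O l)) (A (O l) (A (O l) (A (O l) (A (O l) (A (O l) (O l)))))))))

theorem hpl4 (x : ℝ) (h0 : 0 ≤ x) (h1 : x ≤ 1) : evalIL lpl4 x 0 ≤ 0 :=
  uni_le 9 65536 lpl4 (by norm_num) (by norm_num) (by decide +kernel)
    (chkOut_sound (uniPb 9 65536 lpl4) tpl4 0 32768 0 32768 (by decide +kernel)) x h0 h1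

/-- Certificate polynomial. -/
def lnu4 : List ITm := [⟨(-12436083579814294353127479553222656250000000000000000000000),0,0⟩,⟨(-43666762122171348892152309417724609375000000000000000000000),1,0⟩,⟨44899978020230472723487764596939086914062500000000000000000,2,0⟩,⟨171556751369860217410413600504398345947265625000000000000000,3,0⟩,⟨(-138387306238202773689260691710582375526428222656250000000000),4,0⟩,⟨(-94128871976593461678189182852727259979248046875000000000000),5,0⟩,⟨68108325438960441044353695060990129176717285156250000000000,6,0⟩,⟨7472686562652955904691160589899484426858558647265625000000,7,0⟩,⟨(-10064408353418223462616905954970066121620174850144067500000),8,0⟩,⟨1473944098011645877050331558244445840730620133243273995479,9,0⟩]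

/-- Certificate tree. -/
def tnu4 : OutT := (A (A (O l) (O l)) (A (A (O l) (A (O l) (A (O l) (O l)))) (A (A (A (O l) (A (O l) (O l))) (A (A (A (O l) (O l)) (A (O l) (O l))) (A (A (O l) (O l)) (A (O l) (O l))))) (A (A (A (O l) (O l)) (O l)) (A (O l) (O l))))))

theorem hnu4 (x : ℝ) (h0 : 0 ≤ x) (h1 : x ≤ 1) : evalIL lnu4 x 0 ≤ 0 :=
  uni_le 9 65536 lnu4 (by norm_num) (by norm_num) (by decide +kernel)
    (chkOut_sound (uniPb 9 65536 lnu4) tnu4 0 32768 0 32768 (by decide +kernel)) x h0 h1

/-- Certificate polynomial. -/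
def lnl4 : List ITm := [⟨(-17287226455664495006203651428222656250000000000000000000000),0,0⟩,⟨85581289887210004962980747222900390625000000000000000000000,1,0⟩,⟨(-67064749150227246393915265798568725585937500000000000000000),2,0⟩,⟨(-166347450914958778348844550549983978271484375000000000000000),3,0⟩,⟨137928185584470126337857115806660056114196777343750000000000,4,0⟩,⟨94128871976593461678189182852727259979248046875000000000000,5,0⟩,⟨(-68108325438960441044353695060990129176717285156250000000000),6,0⟩,⟨(-7472686562652955904691160589899484426858558647265625000000),7,0⟩,⟨10064408353418223462616905954970066121620174850144067500000,8,0⟩,⟨(-1473944098011645877050331558244445840730620133243273995479),9,0⟩]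

/-- Certificate tree. -/
def tnl4 : OutT := (A (A (A (O l) (O l)) (A (A (O l) (A (O l) (O l))) (A (A (O l) (O l)) (A (O l) (O l))))) (A (A (A (O l) (O l)) (A (O l) (O l))) (A (A (O l) (O l)) (A (O l) (A (O l) (A (O l) (A (O l) (A (O l) (O l)))))))))

theorem hnl4 (x : ℝ) (h0 : 0 ≤ x) (h1 : x ≤ 1) : evalIL lnl4 x 0 ≤ 0 :=
  uni_le 9 65536 lnl4 (by norm_num) (by norm_num) (by decide +kernel)
    (chkOut_sound (uniPb 9 65536 lnl4) tnl4 0 32768 0 32768 (by decide +kernel)) x h0 h1

theorem apx4 (u : ℝ) (h0 : -(220337 / 625000 : ℝ) ≤ u) (h1 : u ≤ 2 * (220337 / 625000 : ℝ)) :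
    |((1 + u)⁻¹) ^ 4 - evalZ Ax.p4 (3 * u) / Ax.D4| ≤ Ax.e4 * |u| ^ Ax.m4 := by
  have hu : 0 < 1 + u := by norm_num at h0 ⊢; linarith
  refine apx_of_S 4 2 _ (S4 u) _ u hu ?_ ?_ ?_
  · simp only [Ax, evalZ_cons, evalZ_nil, S4]
    push_cast
    ring
  · rcases le_total 0 u with hs | hs
    · have hx := hpu4 (u / (2 * (220337 / 625000 : ℝ))) (by positivity) (by rw [div_le_one (by norm_num)]; exact h1)
      have e : evalIL lpu4 (u / (2 * (220337 / 625000 : ℝ))) 0 = 476837158203125000000000000000000000000000000000000000000 * (S4 u - Ax.e4 * (1 + u) ^ 4) := by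
        simp only [lpu4, evalIL, List.map_cons, List.map_nil, List.sum_cons, List.sum_nil, S4, Ax]
        push_cast
        ring
      rw [e] at hx
      have := cmul_nonpos (by norm_num) hx
      simp only [Ax] at this ⊢
      linarith
    · have hx := hnu4 (-u / (220337 / 625000 : ℝ)) (by apply div_nonneg <;> [linarith; norm_num]) (by rw [div_le_one (by norm_num)]; linarith)
      have e : evalIL lnu4 (-u / (220337 / 625000 : ℝ)) 0 = 244140625000000000000000000000000000000000000000000000000000 * (S4 u - Ax.e4 * (1 + u) ^ 4) := by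
        simp only [lnu4, evalIL, List.map_cons, List.map_nil, List.sum_cons, List.sum_nil, S4, Ax]
        push_cast
        ring
      rw [e] at hx
      have := cmul_nonpos (by norm_num) hx
      simp only [Ax] at this ⊢
      linarith
  · rcases le_total 0 u with hs | hs
    · have hx := hpl4 (u / (2 * (220337 / 625000 : ℝ))) (by positivity) (by rw [div_le_one (by norm_num)]; exact h1)
      have e : evalIL lpl4 (u / (2 * (220337 / 625000 : ℝ))) 0 = 476837158203125000000000000000000000000000000000000000000 * (-S4 u - Ax.e4 * (1 + u) ^ 4) := by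
        simp only [lpl4, evalIL, List.map_cons, List.map_nil, List.sum_cons, List.sum_nil, S4, Ax]
        push_cast
        ring
      rw [e] at hx
      have := cmul_nonpos (by norm_num) hx
      simp only [Ax] at this ⊢
      linarith
    · have hx := hnl4 (-u / (220337 / 625000 : ℝ)) (by apply div_nonneg <;> [linarith; norm_num]) (by rw [div_le_one (by norm_num)]; linarith)
      have e : evalIL lnl4 (-u / (220337 / 625000 : ℝ)) 0 = 244140625000000000000000000000000000000000000000000000000000 * (-S4 u - Ax.e4 * (1 + u) ^ 4) := by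
        simp only [lnl4, evalIL, List.map_cons, List.map_nil, List.sum_cons, List.sum_nil, S4, Ax]
        push_cast
        ring
      rw [e] at hx
      have := cmul_nonpos (by norm_num) hx
      simp only [Ax] at this ⊢
      linarith

/-- The quotient polynomial for `j = 5`. -/
noncomputable def S5 (u : ℝ) : ℝ :=
  (333091 / 8388608 : ℝ) * u ^ 0 + (39515393 / 16777216 : ℝ) * u ^ 1 + (121872607 / 16777216 : ℝ) * u ^ 2 + (-93909089 / 2097152 : ℝ) * u ^ 3 + (-2581819683 / 16777216 : ℝ) * u ^ 4 + (129186473 / 1048576 : ℝ) * u ^ 5 + (10770905053 / 16777216 : ℝ) * u ^ 6 + (1087109533 / 4194304 : ℝ) * u ^ 7 + (-11086865243 / 16777216 : ℝ) * u ^ 8 + (-11875020893 / 16777216 : ℝ) * u ^ 9 + (-853223161 / 4194304 : ℝ) * u ^ 10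

/-- Certificate polynomial. -/
def lpu5 : List ITm := [⟨(-5483150287977078818357767886482179164886474609375000000000000),0,0⟩,⟨37319758028914074010629065014654770493507385253906250000000000,1,0⟩,⟨99918197401211151018429745818139053881168365478515625000000000,2,0⟩,⟨(-609127329453223911815105172991025028750300407409667968750000000),3,0⟩,⟨(-1425427106638975201061360770197305100737139582633972167968750000),4,0⟩,⟨798555278570496215097727603368799810402560979127883911132812500,5,0⟩,⟨2938440389940389200683042757014154866725151538848876953125000000,6,0⟩,⟨836441155216297746978575880570301520592778704498291015625000000,7,0⟩,⟨(-1503655256599309367913388318171091455284929422060874096679687500),8,0⟩,⟨(-1135563175802648374805024013476004418343277202449377263036015625),9,0⟩,⟨(-230110775454093445813419570928503108164619476770424949943241689),10,0⟩]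

/-- Certificate tree. -/
def tpu5 : OutT := (A (A (A (A (O l) (O l)) (A (A (O l) (A (O l) (O l))) (A (O l) (O l)))) (A (A (O l) (O l)) (A (O l) (O l)))) (A (A (O l) (A (O l) (O l))) (A (A (A (O l) (O l)) (A (A (O l) (O l)) (A (A (O l) (O l)) (A (O l) (O l))))) (A (A (A (A (O l) (O l)) (A (O l) (O l))) (A (A (O l) (O l)) (O l))) (A (A (O l) (O l)) (O l))))))

theorem hpu5 (x : ℝ) (h0 : 0 ≤ x) (h1 : x ≤ 1) : evalIL lpu5 x 0 ≤ 0 :=
  uni_le 10 65536 lpu5 (by norm_num) (by norm_num) (by decide +kernel)
    (chkOut_sound (uniPb 10 65536 lpu5) tpu5 0 32768 0 32768 (by decide +kernel)) x h0 h1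

/-- Certificate polynomial. -/
def lpl5 : List ITm := [⟨(-8441592667940422956007751054130494594573974609375000000000000),0,0⟩,⟨(-86409935447761987425963070563739165663719177246093750000000000),1,0⟩,⟨(-169143044901605984286874218014418147504329681396484375000000000),2,0⟩,⟨560318384737401523405923574046028079465031623840332031250000000,3,0⟩,⟨1408220040316014948909498616650515032233670353889465332031250000,4,0⟩,⟨(-800981744728833554667893908217464823729824274778366088867187500),5,0⟩,⟨(-2938440389940389200683042757014154866725151538848876953125000000),6,0⟩,⟨(-836441155216297746978575880570301520592778704498291015625000000),7,0⟩,⟨1503655256599309367913388318171091455284929422060874096679687500,8,0⟩,⟨1135563175802648374805024013476004418343277202449377263036015625,9,0⟩,⟨230110775454093445813419570928503108164619476770424949943241689,10,0⟩]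

/-- Certificate tree. -/
def tpl5 : OutT := (A (A (A (O l) (O l)) (A (O l) (A (O l) (A (O l) (O l))))) (A (A (A (A (A (O l) (O l)) (A (O l) (A (O l) (O l)))) (A (A (A (O l) (O l)) (A (O l) (O l))) (A (O l) (O l)))) (A (A (O l) (O l)) (A (O l) (O l)))) (A (A (O l) (O l)) (A (O l) (A (O l) (A (O l) (A (O l) (A (O l) (O l)))))))))

theorem hpl5 (x : ℝ) (h0 : 0 ≤ x) (h1 : x ≤ 1) : evalIL lpl5 x 0 ≤ 0 :=
  uni_le 10 65536 lpl5 (by norm_num) (by norm_num) (by decide +kernel)
    (chkOut_sound (uniPb 10 65536 lpl5) tpl5 0 32768 0 32768 (by decide +kernel)) x h0 h1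

/-- Certificate polynomial. -/
def lnu5 : List ITm := [⟨(-5614745894888528709998354315757751464843750000000000000000000000),0,0⟩,⟨(-19107716110804005893442081287503242492675781250000000000000000000),1,0⟩,⟨25579058534710054660718014929443597793579101562500000000000000000,2,0⟩,⟨77968298170012660712333462142851203680038452148437500000000000000,3,0⟩,⟨(-91227334824894412867927089292627526447176933288574218750000000000),4,0⟩,⟨(-25553768914255878883127283307801593932881951332092285156250000000),5,0⟩,⟨47015046239046227210928684112226477867602424621582031250000000000,6,0⟩,⟨(-6691529241730381975828607044562412164742229635986328125000000000),7,0⟩,⟨(-6014621026397237471653553272684365821139717688243496386718750000),8,0⟩,⟨2271126351605296749610048026952008836686554404898754526072031250,9,0⟩,⟨(-230110775454093445813419570928503108164619476770424949943241689),10,0⟩]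

/-- Certificate tree. -/
def tnu5 : OutT := (A (A (O l) (O l)) (A (A (O l) (A (O l) (A (O l) (O l)))) (A (A (A (O l) (A (O l) (O l))) (A (A (A (O l) (O l)) (A (O l) (O l))) (A (A (O l) (O l)) (A (O l) (O l))))) (A (A (A (A (O l) (O l)) (O l)) (A (O l) (O l))) (A (O l) (O l))))))

theorem hnu5 (x : ℝ) (h0 : 0 ≤ x) (h1 : x ≤ 1) : evalIL lnu5 x 0 ≤ 0 :=
  uni_le 10 65536 lnu5 (by norm_num) (by norm_num) (by decide +kernel)
    (chkOut_sound (uniPb 10 65536 lnu5) tnu5 0 32768 0 32768 (by decide +kernel)) x h0 h1

/-- Certificate polynomial. -/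
def lnl5 : List ITm := [⟨(-8644190891970993106951937079429626464843750000000000000000000000),0,0⟩,⟨44241886949254137562093092128634452819824218750000000000000000000,1,0⟩,⟨(-43300619494811131977439799811691045761108398437500000000000000000),2,0⟩,⟨(-71720753246387394995958217477891594171524047851562500000000000000),3,0⟩,⟨90126082580224956730207911465632962062954902648925781250000000000,4,0⟩,⟨25631415831322673749372605062958874359354376792907714843750000000,5,0⟩,⟨(-47015046239046227210928684112226477867602424621582031250000000000),6,0⟩,⟨6691529241730381975828607044562412164742229635986328125000000000,7,0⟩,⟨6014621026397237471653553272684365821139717688243496386718750000,8,0⟩,⟨(-2271126351605296749610048026952008836686554404898754526072031250),9,0⟩,⟨230110775454093445813419570928503108164619476770424949943241689,10,0⟩]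

/-- Certificate tree. -/
def tnl5 : OutT := (A (A (A (O l) (O l)) (A (A (O l) (A (O l) (O l))) (A (A (O l) (O l)) (A (O l) (O l))))) (A (A (A (O l) (O l)) (A (O l) (O l))) (A (A (O l) (O l)) (A (A (O l) (O l)) (A (O l) (A (O l) (A (O l) (A (O l) (O l)))))))))

theorem hnl5 (x : ℝ) (h0 : 0 ≤ x) (h1 : x ≤ 1) : evalIL lnl5 x 0 ≤ 0 :=
  uni_le 10 65536 lnl5 (by norm_num) (by norm_num) (by decide +kernel)
    (chkOut_sound (uniPb 10 65536 lnl5) tnl5 0 32768 0 32768 (by decide +kernel)) x h0 h1

theorem apx5 (u : ℝ) (h0 : -(220337 / 625000 : ℝ) ≤ u) (h1 : u ≤ 2 * (220337 / 625000 : ℝ)) :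
    |((1 + u)⁻¹) ^ 5 - evalZ Ax.p5 (3 * u) / Ax.D5| ≤ Ax.e5 * |u| ^ Ax.m5 := by
  have hu : 0 < 1 + u := by norm_num at h0 ⊢; linarith
  refine apx_of_S 5 2 _ (S5 u) _ u hu ?_ ?_ ?_
  · simp only [Ax, evalZ_cons, evalZ_nil, S5]
    push_cast
    ring
  · rcases le_total 0 u with hs | hs
    · have hx := hpu5 (u / (2 * (220337 / 625000 : ℝ))) (by positivity) (by rw [div_le_one (by norm_num)]; exact h1)
      have e : evalIL lpu5 (u / (2 * (220337 / 625000 : ℝ))) 0 = 37252902984619140625000000000000000000000000000000000000000000 * (S5 u - Ax.e5 * (1 + u) ^ 5) := by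
        simp only [lpu5, evalIL, List.map_cons, List.map_nil, List.sum_cons, List.sum_nil, S5, Ax]
        push_cast
        ring
      rw [e] at hx
      have := cmul_nonpos (by norm_num) hx
      simp only [Ax] at this ⊢
      linarith
    · have hx := hnu5 (-u / (220337 / 625000 : ℝ)) (by apply div_nonneg <;> [linarith; norm_num]) (by rw [div_le_one (by norm_num)]; linarith)
      have e : evalIL lnu5 (-u / (220337 / 625000 : ℝ)) 0 = 38146972656250000000000000000000000000000000000000000000000000000 * (S5 u - Ax.e5 * (1 + u) ^ 5) := by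
        simp only [lnu5, evalIL, List.map_cons, List.map_nil, List.sum_cons, List.sum_nil, S5, Ax]
        push_cast
        ring
      rw [e] at hx
      have := cmul_nonpos (by norm_num) hx
      simp only [Ax] at this ⊢
      linarith
  · rcases le_total 0 u with hs | hs
    · have hx := hpl5 (u / (2 * (220337 / 625000 : ℝ))) (by positivity) (by rw [div_le_one (by norm_num)]; exact h1)
      have e : evalIL lpl5 (u / (2 * (220337 / 625000 : ℝ))) 0 = 37252902984619140625000000000000000000000000000000000000000000 * (-S5 u - Ax.e5 * (1 + u) ^ 5) := by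
        simp only [lpl5, evalIL, List.map_cons, List.map_nil, List.sum_cons, List.sum_nil, S5, Ax]
        push_cast
        ring
      rw [e] at hx
      have := cmul_nonpos (by norm_num) hx
      simp only [Ax] at this ⊢
      linarith
    · have hx := hnl5 (-u / (220337 / 625000 : ℝ)) (by apply div_nonneg <;> [linarith; norm_num]) (by rw [div_le_one (by norm_num)]; linarith)
      have e : evalIL lnl5 (-u / (220337 / 625000 : ℝ)) 0 = 38146972656250000000000000000000000000000000000000000000000000000 * (-S5 u - Ax.e5 * (1 + u) ^ 5) := by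
        simp only [lnl5, evalIL, List.map_cons, List.map_nil, List.sum_cons, List.sum_nil, S5, Ax]
        push_cast
        ring
      rw [e] at hx
      have := cmul_nonpos (by norm_num) hx
      simp only [Ax] at this ⊢
      linarith

theorem hAx : Ax.OK (-(220337 / 625000 : ℝ)) (2 * (220337 / 625000 : ℝ)) where
  e10 := by simp only [Ax]; norm_num
  e20 := by simp only [Ax]; norm_num
  e30 := by simp only [Ax]; norm_num
  e40 := by simp only [Ax]; norm_num
  e50 := by simp only [Ax]; norm_num
  h1 := fun u a b => by simpa using apx1 u a b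
  h2 := apx2
  h3 := apx3
  h4 := apx4
  h5 := apx5

end Vale.Agent.P154.D8.K0
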