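import Vale.Agent.P154.D8.K0.Data
import Vale.Agent.P154.Check2

namespace Vale.Agent.P154.D8.K0

open Cert

/-- Chart (0, 0). -/
def P00 : Pb := chartPb false false Nd w G []

/-- Chart (0, 1). -/
def P01 : Pb := chartPb false true Nd w G []

/-- Chart (1, 0). -/
def P10 : Pb := chartPb true false Nd w G []

/-- Chart (1, 1). -/
def P11 : Pb := chartPb true true Nd w G []

/-- The offset. -/
def KK : ℕ := 22471164185778948846616314884862809170224712236778832159178760144716584475687620391588559665300942002640014234983924169707348721101802077811605928829934265547220986678108185659537777450155761764931635369010625721104768835292807860184239138817603404645418813835573287279993405742309964538104419541203028017152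

end Vale.Agent.P154.D8.K0
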